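import Vale.Agent.P088.R2.H558.Spec
import Mathlib.Analysis.Distribution.SchwartzSpace.Fourier

/-!
# P088, row TFR: the trace is controlled by the trace free part (Plancherel)
-/

open MeasureTheory Set
open scoped ContDiff Matrix FourierTransform SchwartzMap LineDeriv

noncomputable section

namespace Vale.Agent.P088.R2.H551.Tfr

open Vale.Agent.P088.LR Vale.Agent.P088.HY

variable {n : ℕ}

/-- Euclidean space. -/
abbrev En (n : ℕ) := EuclideanSpace ℝ (Fin n)

/-- The coordinates. -/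
def co (n : ℕ) : En n ≃L[ℝ] V n := PiLp.continuousLinearEquiv 2 ℝ (fun _ : Fin n => ℝ)

/-- `f` as a complex function on Euclidean space. -/
def lf (f : V n → ℝ) (x : En n) : ℂ := ((f (co n x) : ℝ) : ℂ)

theorem lf_smooth {f : V n → ℝ} (hf : ContDiff ℝ ∞ f) : ContDiff ℝ ∞ (lf f) :=
  Complex.ofRealCLM.contDiff.comp (hf.comp (co n).contDiff)

theorem lf_supp {f : V n → ℝ} (hc : HasCompactSupport f) : HasCompactSupport (lf f) := by
  have h : HasCompactSupport (f ∘ (co n).toHomeomorph) :=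
    hc.comp_homeomorph (co n).toHomeomorph
  exact h.comp_left (g := fun x : ℝ => (x : ℂ)) (by simp)

/-- The Schwartz function. -/
def sc {f : V n → ℝ} (hf : ContDiff ℝ ∞ f) (hc : HasCompactSupport f) : 𝓢(En n, ℂ) :=
  (lf_supp hc).toSchwartzMap (lf_smooth hf)

theorem sc_apply {f : V n → ℝ} (hf : ContDiff ℝ ∞ f) (hc : HasCompactSupport f) (x : En n) :
    sc hf hc x = ((f (co n x) : ℝ) : ℂ) := rfl

theorem int_sq {f : V n → ℝ} (hf : ContDiff ℝ ∞ f) (hc : HasCompactSupport f) :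
    ∫ x, f x ^ 2 = ∫ ξ, ‖𝓕 (sc hf hc) ξ‖ ^ 2 := by
  rw [SchwartzMap.integral_norm_sq_fourier]
  have h := (PiLp.volume_preserving_ofLp (Fin n)).integral_comp
    (MeasurableEquiv.toLp 2 (Fin n → ℝ)).symm.measurableEmbedding (fun x : V n => f x ^ 2)
  rw [← h]
  refine integral_congr_ae (Filter.Eventually.of_forall fun x => ?_)
  simp only [sc_apply, Complex.norm_real, Real.norm_eq_abs, sq_abs]
  rfl

/-- The unit vector. -/
def ev (i : Fin n) : En n := EuclideanSpace.single i (1 : ℝ)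

theorem co_ev (i : Fin n) : co n (ev i) = Pi.single i 1 := by
  ext j
  simp [co, ev, Pi.single_apply]

theorem pd_smooth {f : V n → ℝ} (hf : ContDiff ℝ ∞ f) (i : Fin n) : ContDiff ℝ ∞ (pd i f) :=
  (hf.fderiv_right (m := ∞) (by simp)).clm_apply contDiff_const

theorem pd_supp {f : V n → ℝ} (hc : HasCompactSupport f) (i : Fin n) :
    HasCompactSupport (pd i f) :=
  (hc.fderiv ℝ).comp_left (g := fun L : V n →L[ℝ] ℝ => L (Pi.single i 1)) (by simp)

theorem sc_deriv {f : V n → ℝ} (hf : ContDiff ℝ ∞ f) (hc : HasCompactSupport f) (i : Fin n)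
    (x : En n) : (∂_{ev i} (sc hf hc)) x = ((pd i f (co n x) : ℝ) : ℂ) := by
  rw [SchwartzMap.lineDerivOp_apply_eq_fderiv]
  have h1 : HasFDerivAt f (fderiv ℝ f (co n x)) (co n x) :=
    (hf.differentiable (by simp) _).hasFDerivAt
  have h2 : HasFDerivAt (lf f)
      (Complex.ofRealCLM.comp ((fderiv ℝ f (co n x)).comp (co n : En n →L[ℝ] V n))) x :=
    Complex.ofRealCLM.hasFDerivAt.comp x (h1.comp x (co n).hasFDerivAt)
  have h3 : fderiv ℝ (⇑(sc hf hc)) x =
      Complex.ofRealCLM.comp ((fderiv ℝ f (co n x)).comp (co n : En n →L[ℝ] V n)) := h2.fderiv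
  rw [h3]
  simp [co_ev, pd]

theorem fou_deriv {f : V n → ℝ} (hf : ContDiff ℝ ∞ f) (hc : HasCompactSupport f) (i : Fin n)
    (ξ : En n) : 𝓕 (∂_{ev i} (sc hf hc)) ξ = (2 * Real.pi * Complex.I) * ((ξ i : ℝ) : ℂ) *
      𝓕 (sc hf hc) ξ := by
  rw [SchwartzMap.fourier_lineDerivOp_eq]
  have h : (fun x : En n => inner ℝ x (ev i)).HasTemperateGrowth := by fun_prop
  have h4 : inner ℝ ξ (ev i) = ξ i := by simp [ev, EuclideanSpace.inner_single_right]
  simp only [_root_.smul_apply, SchwartzMap.smulLeftCLM_apply_apply h, h4,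
    Complex.real_smul, smul_eq_mul]
  ring

theorem div_fou {h : Fin n → V n → ℝ} (hf : ∀ i, ContDiff ℝ ∞ (h i))
    (hc : ∀ i, HasCompactSupport (h i)) (hd : ∀ x, ∑ i, pd i (h i) x = 0) (ξ : En n) :
    ∑ i, ((ξ i : ℝ) : ℂ) * 𝓕 (sc (hf i) (hc i)) ξ = 0 := by
  have h1 : ∑ i, ∂_{ev i} (sc (hf i) (hc i)) = 0 := by
    ext x
    simp only [_root_.sum_apply, sc_deriv, _root_.zero_apply]
    rw [← Complex.ofReal_sum, hd, Complex.ofReal_zero]
  have h2 : ∑ i, 𝓕 (∂_{ev i} (sc (hf i) (hc i))) ξ = 0 := by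
    have h3 := congrArg (fun g : 𝓢(En n, ℂ) => (FourierTransform.fourierCLM ℂ 𝓢(En n, ℂ)) g ξ) h1
    simp only [map_sum, _root_.sum_apply, map_zero, _root_.zero_apply] at h3
    exact h3
  simp only [fou_deriv] at h2
  have h5 : (2 * Real.pi * Complex.I) * ∑ i, ((ξ i : ℝ) : ℂ) * 𝓕 (sc (hf i) (hc i)) ξ = 0 := by
    rw [← h2, Finset.mul_sum]
    exact Finset.sum_congr rfl fun i _ => by ring
  exact (mul_eq_zero.1 h5).resolve_left Complex.two_pi_I_ne_zero

theorem pw {a : Fin n → Fin n → ℂ} {ξ : Fin n → ℝ} (hn : 0 < n) (hξ : ξ ≠ 0)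
    (h : ∀ j, ∑ i, ((ξ i : ℝ) : ℂ) * a i j = 0) :
    ‖∑ i, a i i‖ ^ 2 ≤ (n : ℝ) ^ 2 *
      ∑ i, ∑ j, ‖a i j - (if i = j then (∑ k, a k k) / n else 0)‖ ^ 2 := by
  set t : ℂ := ∑ i, a i i with ht
  set b : Fin n → Fin n → ℂ := fun i j => a i j - (if i = j then t / n else 0) with hb
  have hn' : (n : ℂ) ≠ 0 := Nat.cast_ne_zero.2 hn.ne'
  have hn2 : (0 : ℝ) < n := Nat.cast_pos.2 hn
  have h1 : ∀ j, ∑ i, ((ξ i : ℝ) : ℂ) * b i j = -(((ξ j : ℝ) : ℂ) * (t / n)) := by
    intro j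
    simp only [hb, mul_sub, Finset.sum_sub_distrib, h j, mul_ite, mul_zero, Finset.sum_ite_eq',
      Finset.mem_univ, if_true, zero_sub]
  have h2 : ∀ j, ξ j ^ 2 * (‖t‖ ^ 2 / n ^ 2) ≤ (∑ i, ξ i ^ 2) * ∑ i, ‖b i j‖ ^ 2 := by
    intro j
    have h3 : ‖∑ i, ((ξ i : ℝ) : ℂ) * b i j‖ ≤ ∑ i, |ξ i| * ‖b i j‖ := by
      refine (norm_sum_le _ _).trans (le_of_eq (Finset.sum_congr rfl fun i _ => ?_))
      rw [norm_mul, Complex.norm_real, Real.norm_eq_abs]
    have h4 : ‖∑ i, ((ξ i : ℝ) : ℂ) * b i j‖ = |ξ j| * (‖t‖ / n) := by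
      rw [h1 j, norm_neg, norm_mul, norm_div, Complex.norm_real, Real.norm_eq_abs,
        Complex.norm_natCast]
    have h5 : (∑ i, |ξ i| * ‖b i j‖) ^ 2 ≤ (∑ i, |ξ i| ^ 2) * ∑ i, ‖b i j‖ ^ 2 :=
      Finset.sum_mul_sq_le_sq_mul_sq _ _ _
    simp only [sq_abs] at h5
    refine le_trans ?_ h5
    rw [h4] at h3
    have h6 : (|ξ j| * (‖t‖ / n)) ^ 2 ≤ (∑ i, |ξ i| * ‖b i j‖) ^ 2 :=
      pow_le_pow_left₀ (by positivity) h3 2
    rw [mul_pow, sq_abs, div_pow] at h6
    exact h6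
  have h7 : (∑ j, ξ j ^ 2) * (‖t‖ ^ 2 / n ^ 2) ≤ (∑ i, ξ i ^ 2) * ∑ j, ∑ i, ‖b i j‖ ^ 2 := by
    rw [Finset.sum_mul, Finset.mul_sum]
    exact Finset.sum_le_sum fun j _ => h2 j
  have h8 : 0 < ∑ j, ξ j ^ 2 := by
    obtain ⟨j, hj⟩ := Function.ne_iff.1 hξ
    refine Finset.sum_pos' (fun i _ => sq_nonneg _) ⟨j, Finset.mem_univ _, ?_⟩
    exact (sq_pos_iff).2 hj
  have h9 := le_of_mul_le_mul_left h7 h8
  rw [div_le_iff₀ (by positivity)] at h9
  rw [Finset.sum_comm, mul_comm]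
  exact h9

theorem fou_lin {ι : Type*} [Fintype ι] {f : V n → ℝ} (hf : ContDiff ℝ ∞ f)
    (hc : HasCompactSupport f) {g : ι → V n → ℝ} (hg : ∀ k, ContDiff ℝ ∞ (g k))
    (hgc : ∀ k, HasCompactSupport (g k)) (c : ι → ℝ) (h : ∀ x, f x = ∑ k, c k * g k x)
    (ξ : En n) : 𝓕 (sc hf hc) ξ = ∑ k, ((c k : ℝ) : ℂ) * 𝓕 (sc (hg k) (hgc k)) ξ := by
  have h1 : sc hf hc = ∑ k, ((c k : ℝ) : ℂ) • sc (hg k) (hgc k) := by
    ext x
    simp only [_root_.sum_apply, _root_.smul_apply, sc_apply, h, smul_eq_mul]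
    push_cast
    rfl
  have h3 := congrArg (fun g : 𝓢(En n, ℂ) => (FourierTransform.fourierCLM ℂ 𝓢(En n, ℂ)) g ξ) h1
  simp only [map_sum, _root_.sum_apply, map_smul, _root_.smul_apply, smul_eq_mul] at h3
  exact h3

theorem int_cs {f : V n → ℝ} (hf : ContDiff ℝ ∞ f) (hc : HasCompactSupport f) :
    Integrable fun x => f x ^ 2 := by
  have h : HasCompactSupport fun x => f x ^ 2 := by
    have := hc.comp_left (g := fun x : ℝ => x ^ 2) (by simp)
    exact this
  exact (hf.continuous.pow 2).integrable_of_hasCompactSupport h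

theorem supp_sum {ι : Type*} [Fintype ι] {g : ι → V n → ℝ} (hgc : ∀ k, HasCompactSupport (g k)) :
    HasCompactSupport fun x => ∑ k, g k x := by
  classical
  have key : ∀ s : Finset ι, HasCompactSupport fun x => ∑ k ∈ s, g k x := by
    intro s
    induction s using Finset.induction_on with
    | empty =>
      simp only [Finset.sum_empty]
      exact (HasCompactSupport.zero : HasCompactSupport (0 : V n → ℝ))
    | insert a s ha ih =>
      simp only [Finset.sum_insert ha]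
      exact (hgc a).add ih
  exact key Finset.univ

/-- The trace. -/
def tr (h : Fin n → Fin n → V n → ℝ) (x : V n) : ℝ := ∑ i, h i i x

/-- The trace free part. -/
def h0 (h : Fin n → Fin n → V n → ℝ) (i j : Fin n) (x : V n) : ℝ :=
  h i j x - (if i = j then tr h x / n else 0)

section

variable {h : Fin n → Fin n → V n → ℝ} (hf : ∀ i j, ContDiff ℝ ∞ (h i j))
  (hc : ∀ i j, HasCompactSupport (h i j))

include hf in
theorem tf : ContDiff ℝ ∞ (tr h) := ContDiff.sum fun i _ => hf i i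

include hc in
theorem tc : HasCompactSupport (tr h) := supp_sum fun i => hc i i

include hf in
theorem bf (i j : Fin n) : ContDiff ℝ ∞ (h0 h i j) := by
  by_cases hij : i = j
  · have : h0 h i j = fun x => h i j x - tr h x / n := by ext x; simp [h0, hij]
    rw [this]
    exact (hf i j).sub ((tf hf).div_const _)
  · have : h0 h i j = h i j := by ext x; simp [h0, hij]
    rw [this]
    exact hf i j

include hc in
theorem bc (i j : Fin n) : HasCompactSupport (h0 h i j) := by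
  by_cases hij : i = j
  · have h1 : HasCompactSupport fun x => tr h x / (n : ℝ) := by
      have := (tc hc).comp_left (g := fun x : ℝ => x / n) (by simp)
      exact this
    have : h0 h i j = fun x => h i j x - tr h x / n := by ext x; simp [h0, hij]
    rw [this]
    exact (hc i j).sub h1
  · have : h0 h i j = h i j := by ext x; simp [h0, hij]
    rw [this]
    exact hc i j

theorem i2 {f : V n → ℝ} (hf : ContDiff ℝ ∞ f) (hc : HasCompactSupport f) :
    Integrable fun ξ => ‖𝓕 (sc hf hc) ξ‖ ^ 2 := by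
  have := (𝓕 (sc hf hc)).memLp 2
  simpa using this.integrable_norm_pow (by norm_num)

theorem e1 (ξ : En n) : 𝓕 (sc (tf hf) (tc hc)) ξ = ∑ i, 𝓕 (sc (hf i i) (hc i i)) ξ := by
  rw [fou_lin (tf hf) (tc hc) (fun i => hf i i) (fun i => hc i i) (fun _ => 1)
    (fun x => by simp [tr])]
  simp

theorem e2 (i j : Fin n) (ξ : En n) : 𝓕 (sc (bf hf i j) (bc hc i j)) ξ =
    𝓕 (sc (hf i j) (hc i j)) ξ -
      (if i = j then (∑ k, 𝓕 (sc (hf k k) (hc k k)) ξ) / n else 0) := by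
  rw [← e1]
  by_cases hij : i = j
  · have h1 := fou_lin (bf hf i j) (bc hc i j) (g := fun b : Bool => if b then h i j else tr h)
      (fun b => by cases b <;> simp [tf hf, hf]) (fun b => by cases b <;> simp [tc hc, hc])
      (fun b => if b then 1 else -(1 / n)) (fun x => by simp [h0, hij]; ring) ξ
    rw [h1]
    simp [hij]
    ring
  · have h1 := fou_lin (bf hf i j) (bc hc i j) (g := fun _ : Unit => h i j) (fun _ => hf i j)
      (fun _ => hc i j) (fun _ => 1) (fun x => by simp [h0, hij]) ξ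
    rw [h1]
    simp [hij]

theorem int_h0 : ∫ x, ∑ i, ∑ j, h0 h i j x ^ 2 =
    ∫ ξ, ∑ i, ∑ j, ‖𝓕 (sc (bf hf i j) (bc hc i j)) ξ‖ ^ 2 := by
  have i1 : ∀ i j, Integrable fun x => h0 h i j x ^ 2 := fun i j => int_cs (bf hf i j) (bc hc i j)
  rw [integral_finsetSum _ fun i _ => integrable_finsetSum _ fun j _ => i1 i j,
    integral_finsetSum _ fun i _ => integrable_finsetSum _ fun j _ => i2 (bf hf i j) (bc hc i j)]
  refine Finset.sum_congr rfl fun i _ => ?_
  rw [integral_finsetSum _ fun j _ => i1 i j,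
    integral_finsetSum _ fun j _ => i2 (bf hf i j) (bc hc i j)]
  exact Finset.sum_congr rfl fun j _ => int_sq (bf hf i j) (bc hc i j)

theorem pt (hn : 0 < n) (hd : ∀ j x, ∑ i, pd i (h i j) x = 0) (ξ : En n) (hξ : ξ ≠ 0) :
    ‖𝓕 (sc (tf hf) (tc hc)) ξ‖ ^ 2 ≤ (n : ℝ) ^ 2 *
      ∑ i, ∑ j, ‖𝓕 (sc (bf hf i j) (bc hc i j)) ξ‖ ^ 2 := by
  have hξ' : (fun i => ξ i) ≠ 0 := by
    intro h0
    exact hξ (by ext i; exact congrFun h0 i)
  have h1 := pw (a := fun i j => 𝓕 (sc (hf i j) (hc i j)) ξ) (ξ := fun i => ξ i) hn hξ'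
    fun j => div_fou (h := fun i => h i j) (fun i => hf i j) (fun i => hc i j) (hd j) ξ
  have h2 : ∑ i, ∑ j, ‖𝓕 (sc (bf hf i j) (bc hc i j)) ξ‖ ^ 2 =
      ∑ i, ∑ j, ‖𝓕 (sc (hf i j) (hc i j)) ξ -
      (if i = j then (∑ k, 𝓕 (sc (hf k k) (hc k k)) ξ) / n else 0)‖ ^ 2 :=
    Finset.sum_congr rfl fun i _ => Finset.sum_congr rfl fun j _ => by rw [e2 hf hc i j ξ]
  rw [h2, e1 hf hc ξ]
  exact h1

include hf hc in
/-- The trace is controlled by the trace free part. -/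
theorem trace_le (hn : 0 < n) (hd : ∀ j x, ∑ i, pd i (h i j) x = 0) :
    ∫ x, tr h x ^ 2 ≤ (n : ℝ) ^ 2 * ∫ x, ∑ i, ∑ j, h0 h i j x ^ 2 := by
  rw [int_sq (tf hf) (tc hc), int_h0 hf hc, ← integral_const_mul]
  have h3 : Integrable fun ξ => (n : ℝ) ^ 2 *
      ∑ i, ∑ j, ‖𝓕 (sc (bf hf i j) (bc hc i j)) ξ‖ ^ 2 :=
    (integrable_finsetSum _ fun i _ =>
      integrable_finsetSum _ fun j _ => i2 (bf hf i j) (bc hc i j)).const_mul _
  refine integral_mono_ae (i2 _ _) h3 ?_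
  have : Nonempty (Fin n) := ⟨⟨0, hn⟩⟩
  have : Nontrivial (En n) := inferInstance
  have hne : ∀ᵐ ξ : En n, ξ ≠ 0 := by
    rw [ae_iff]
    simp
  filter_upwards [hne] with ξ hξ
  exact pt hf hc hn hd ξ hξ

end

/-! ## The pointwise inequality -/

theorem sum_h0 (h : Fin n → Fin n → V n → ℝ) (hn : 0 < n) (x : V n) :
    ∑ i, ∑ j, h0 h i j x ^ 2 = ∑ i, ∑ j, h i j x ^ 2 - tr h x ^ 2 / n := by
  have hn' : (n : ℝ) ≠ 0 := Nat.cast_ne_zero.2 hn.ne'
  have h1 : ∀ i j, h0 h i j x ^ 2 = h i j x ^ 2 +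
      (if i = j then (tr h x / n) ^ 2 - 2 * (tr h x / n) * h i j x else 0) := by
    intro i j
    by_cases hij : i = j
    · simp only [h0, hij, if_true]; ring
    · simp only [h0, hij, if_false]; ring
  simp only [h1, Finset.sum_add_distrib, Finset.sum_ite_eq, Finset.mem_univ, if_true,
    Finset.sum_sub_distrib, ← Finset.mul_sum]
  have h2 : ∑ i, h i i x = tr h x := rfl
  rw [h2]
  simp only [Finset.sum_const, Finset.card_univ, Fintype.card_fin, nsmul_eq_mul]
  field_simp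
  ring

theorem sum_tfp (s k : MF n) (x : V n) : ∑ i, ∑ j, k x i j * tfp s k x i j =
    ∑ i, ∑ j, k x i j ^ 2 - ipm s k x ^ 2 / ipm s s x := by
  have h1 : ∀ i j, k x i j * tfp s k x i j = k x i j ^ 2 -
      ipm s k x / ipm s s x * (s x i j * k x i j) := by
    intro i j
    simp only [tfp, Matrix.sub_apply, Matrix.smul_apply, smul_eq_mul]
    ring
  simp only [h1, Finset.sum_sub_distrib, ← Finset.mul_sum]
  have h2 : ∑ i, ∑ j, s x i j * k x i j = ipm s k x := rfl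
  rw [h2]
  ring

theorem ineq {N S t q B ε : ℝ} (hN : 1 ≤ N) (hS : 0 ≤ S) (ht : t ^ 2 ≤ N * S)
    (hε : ε = 1 / (20 * N * (N + 1))) (hq : q ^ 2 ≤ N ^ 2 * ε ^ 2 * S)
    (hB : N * (1 - 2 * ε) ≤ B) : (t + q) ^ 2 / B ≤ t ^ 2 / N + 1 / (2 * (N + 1)) * S := by
  have hN0 : 0 < N := by linarith
  have he : 0 < ε := by rw [hε]; positivity
  have he1 : N * ε = 1 / (20 * (N + 1)) := by rw [hε]; field_simp
  have he2 : ε ≤ 1 / 4 := by
    rw [hε]
    rw [div_le_div_iff₀ (by positivity) (by norm_num)]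
    nlinarith
  have hNe : N * ε ≤ 1 := by
    rw [he1, div_le_one (by positivity)]
    linarith
  have hB0 : 0 < B := lt_of_lt_of_le (by apply mul_pos hN0; linarith) hB
  have h1 : (t + q) ^ 2 ≤ t ^ 2 + (N ^ 2 + 2 * N) * ε * S := by
    have h2 : 2 * t * q ≤ N * ε * t ^ 2 + 1 / (N * ε) * q ^ 2 := by
      have h3 : 0 ≤ (N * ε * t - q) ^ 2 / (N * ε) := by positivity
      have h4 : (N * ε * t - q) ^ 2 / (N * ε) =
          N * ε * t ^ 2 + 1 / (N * ε) * q ^ 2 - 2 * t * q := by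
        field_simp
        ring
      linarith
    have h5 : 1 / (N * ε) * q ^ 2 ≤ N * ε * S := by
      calc 1 / (N * ε) * q ^ 2 ≤ 1 / (N * ε) * (N ^ 2 * ε ^ 2 * S) := by gcongr
        _ = N * ε * S := by field_simp
    have h6 : N * ε * t ^ 2 ≤ N * ε * (N * S) := by gcongr
    have h7 : q ^ 2 ≤ N * ε * S := by
      calc q ^ 2 ≤ N ^ 2 * ε ^ 2 * S := hq
        _ = N * ε * (N * ε * S) := by ring
        _ ≤ 1 * (N * ε * S) := by gcongr
        _ = _ := one_mul _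
    nlinarith
  have h2 : 1 / B ≤ (1 + 4 * ε) / N := by
    rw [div_le_div_iff₀ hB0 hN0]
    have h3 : N ≤ (1 + 4 * ε) * (N * (1 - 2 * ε)) := by
      have h4 : (1 + 4 * ε) * (N * (1 - 2 * ε)) - N = N * (2 * ε * (1 - 4 * ε)) := by ring
      have h5 : 0 ≤ N * (2 * ε * (1 - 4 * ε)) := by
        apply mul_nonneg hN0.le
        apply mul_nonneg (by linarith)
        linarith
      linarith
    calc 1 * N ≤ (1 + 4 * ε) * (N * (1 - 2 * ε)) := by linarith
      _ ≤ (1 + 4 * ε) * B := by gcongr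
  calc (t + q) ^ 2 / B = (t + q) ^ 2 * (1 / B) := by ring
    _ ≤ (t ^ 2 + (N ^ 2 + 2 * N) * ε * S) * ((1 + 4 * ε) / N) := by gcongr
    _ = t ^ 2 / N + 4 * ε / N * t ^ 2 + (1 + 4 * ε) * ((N + 2) * ε * S) := by
        field_simp
    _ ≤ t ^ 2 / N + 4 * ε / N * (N * S) + 2 * ((N + 2) * ε * S) := by
        gcongr
        linarith
    _ = t ^ 2 / N + (2 * N + 8) * ε * S := by
        field_simp
        ring
    _ ≤ t ^ 2 / N + 1 / (2 * (N + 1)) * S := by
        gcongr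
        rw [hε, mul_one_div, div_le_div_iff₀ (by positivity) (by positivity)]
        nlinarith

theorem ptw (hn : 3 ≤ n) {ε : ℝ} (hε : ε = 1 / (20 * (n : ℝ) * (n + 1))) {s k : MF n} {x : V n}
    (hs : ∀ i j, |s x i j - (1 : Matrix (Fin n) (Fin n) ℝ) i j| ≤ ε) :
    ∑ i, ∑ j, k x i j ^ 2 - tr (fun i j x => k x i j) x ^ 2 / n ≤
      ∑ i, ∑ j, k x i j * tfp s k x i j + 1 / (2 * ((n : ℝ) + 1)) * ∑ i, ∑ j, k x i j ^ 2 := by
  have hn1 : (3 : ℝ) ≤ n := by exact_mod_cast hn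
  have hN : (1 : ℝ) ≤ n := by linarith
  have he : 0 ≤ ε := by rw [hε]; positivity
  set S : ℝ := ∑ i, ∑ j, k x i j ^ 2 with hS
  set t : ℝ := tr (fun i j x => k x i j) x with ht
  set q : ℝ := ∑ i, ∑ j, (s x i j - (1 : Matrix (Fin n) (Fin n) ℝ) i j) * k x i j with hq
  have hS0 : 0 ≤ S := Finset.sum_nonneg fun i _ => Finset.sum_nonneg fun j _ => sq_nonneg _
  have hA : ipm s k x = t + q := by
    have h1 : t = ∑ i, ∑ j, (1 : Matrix (Fin n) (Fin n) ℝ) i j * k x i j := by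
      simp [ht, tr, Matrix.one_apply]
    rw [h1, hq, ← Finset.sum_add_distrib]
    unfold ipm
    refine Finset.sum_congr rfl fun i _ => ?_
    rw [← Finset.sum_add_distrib]
    exact Finset.sum_congr rfl fun j _ => by ring
  have ht2 : t ^ 2 ≤ n * S := by
    have h1 : t ^ 2 ≤ (∑ _i : Fin n, (1 : ℝ) ^ 2) * ∑ i, k x i i ^ 2 := by
      have := Finset.sum_mul_sq_le_sq_mul_sq Finset.univ (fun _ : Fin n => (1 : ℝ))
        (fun i => k x i i)
      simpa [ht, tr] using this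
    have h2 : ∑ i, k x i i ^ 2 ≤ S := Finset.sum_le_sum fun i _ =>
      Finset.single_le_sum (f := fun j => k x i j ^ 2) (fun j _ => sq_nonneg _) (Finset.mem_univ i)
    simp only [one_pow, Finset.sum_const, Finset.card_univ, Fintype.card_fin, nsmul_eq_mul,
      mul_one] at h1
    exact h1.trans (by gcongr)
  have hq2 : q ^ 2 ≤ (n : ℝ) ^ 2 * ε ^ 2 * S := by
    have h1 : q = ∑ p : Fin n × Fin n,
        (s x p.1 p.2 - (1 : Matrix (Fin n) (Fin n) ℝ) p.1 p.2) * k x p.1 p.2 := by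
      rw [hq, Fintype.sum_prod_type]
    have h2 : S = ∑ p : Fin n × Fin n, k x p.1 p.2 ^ 2 := by
      rw [hS, Fintype.sum_prod_type]
    rw [h1, h2]
    refine (Finset.sum_mul_sq_le_sq_mul_sq _ _ _).trans ?_
    gcongr
    calc ∑ p : Fin n × Fin n, (s x p.1 p.2 - (1 : Matrix (Fin n) (Fin n) ℝ) p.1 p.2) ^ 2
        ≤ ∑ _p : Fin n × Fin n, ε ^ 2 := by
          refine Finset.sum_le_sum fun p _ => ?_
          rw [← sq_abs]
          gcongr
          exact hs p.1 p.2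
      _ = (n : ℝ) ^ 2 * ε ^ 2 := by
          simp only [Finset.sum_const, Finset.card_univ, Fintype.card_prod, Fintype.card_fin,
            nsmul_eq_mul, Nat.cast_mul]
          ring
  have hB : (n : ℝ) * (1 - 2 * ε) ≤ ipm s s x := by
    have h1 : ∀ i, 1 - 2 * ε ≤ s x i i * s x i i := by
      intro i
      have h2 := abs_le.1 (hs i i)
      simp only [Matrix.one_apply_eq] at h2
      nlinarith [sq_nonneg (s x i i - 1)]
    calc (n : ℝ) * (1 - 2 * ε) = ∑ _i : Fin n, (1 - 2 * ε) := by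
          rw [Finset.sum_const, Finset.card_univ, Fintype.card_fin, nsmul_eq_mul]
      _ ≤ ∑ i, s x i i * s x i i := Finset.sum_le_sum fun i _ => h1 i
      _ ≤ ipm s s x := Finset.sum_le_sum fun i _ =>
        Finset.single_le_sum (f := fun j => s x i j * s x i j) (fun j _ => mul_self_nonneg _)
          (Finset.mem_univ i)
  have key := ineq hN hS0 ht2 hε hq2 hB
  rw [sum_tfp, hA, ← hS]
  linarith

theorem zero_off {k : MF n} (hz : ∀ x ∉ Bs n (1 / 2), k x = 0) (x : V n)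
    (hx : 1 / 4 ≤ HY.sq x) : k x = 0 := by
  refine hz x ?_
  have h1 : ¬ HY.sq x < (1 / 2) ^ 2 := by linarith
  exact h1

theorem off_ball (x : V n) (hx : x ∉ Metric.closedBall (0 : V n) 1) : 1 / 4 ≤ HY.sq x := by
  by_contra hlt
  push Not at hlt
  apply hx
  rw [mem_closedBall_zero_iff, pi_norm_le_iff_of_nonneg zero_le_one]
  intro i
  have h3 : x i ^ 2 ≤ HY.sq x := Finset.single_le_sum (f := fun j => x j ^ 2)
    (fun j _ => sq_nonneg _) (Finset.mem_univ i)
  rw [Real.norm_eq_abs, abs_le]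
  constructor <;> nlinarith

theorem supp_off {k : MF n} (hz : ∀ x ∉ Bs n (1 / 2), k x = 0) (i j : Fin n) :
    HasCompactSupport fun x => k x i j := by
  refine HasCompactSupport.intro (isCompact_closedBall (0 : V n) 1) fun x hx => ?_
  simp [zero_off hz x (off_ball x hx)]

theorem div_off {k : MF n} (hz : ∀ x ∉ Bs n (1 / 2), k x = 0) {x : V n} (hx : x ∉ Bn n)
    (j : Fin n) : ∑ i, pd i (fun x => k x i j) x = 0 := by
  have hcont : Continuous (HY.sq : V n → ℝ) := by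
    unfold HY.sq
    fun_prop
  have h3 : ∀ᶠ y in nhds x, 1 / 4 < HY.sq y := by
    refine hcont.continuousAt.eventually_const_lt ?_
    have : 1 ≤ HY.sq x := not_lt.1 hx
    linarith
  refine Finset.sum_eq_zero fun i _ => ?_
  have h4 : (fun x => k x i j) =ᶠ[nhds x] fun _ => (0 : ℝ) := by
    filter_upwards [h3] with y hy
    rw [zero_off hz y hy.le]
    rfl
  simp [pd, h4.fderiv_eq]

theorem div_diff {s₁ s₂ : MF n} (h1 : SmM s₁) (h2 : SmM s₂) {x : V n} (j : Fin n)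
    (d1 : ∑ i, pd i (fun y => s₁ y i j) x = 0) (d2 : ∑ i, pd i (fun y => s₂ y i j) x = 0) :
    ∑ i, pd i (fun x => (s₂ x - s₁ x) i j) x = 0 := by
  have h3 : ∀ i, pd i (fun x => (s₂ x - s₁ x) i j) x =
      pd i (fun x => s₂ x i j) x - pd i (fun x => s₁ x i j) x := by
    intro i
    have h4 : fderiv ℝ (fun x => (s₂ x - s₁ x) i j) x =
        fderiv ℝ (fun x => s₂ x i j) x - fderiv ℝ (fun x => s₁ x i j) x :=
      fderiv_sub ((h2 i j).differentiable (by simp) x) ((h1 i j).differentiable (by simp) x)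
    simp only [pd, h4]
    rfl
  simp only [h3, Finset.sum_sub_distrib, d1, d2, sub_zero]

theorem int_tfp {s k : MF n} (hs : SmM s) (hk : ∀ i j, ContDiff ℝ ∞ fun x => k x i j)
    (hkc : ∀ i j, HasCompactSupport fun x => k x i j) (hp : ∀ x, 0 < ipm s s x) :
    Integrable fun x => ∑ i, ∑ j, k x i j * tfp s k x i j := by
  have c1 : ∀ i j, Continuous fun x => s x i j := fun i j => (hs i j).continuous
  have c2 : ∀ i j, Continuous fun x => k x i j := fun i j => (hk i j).continuous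
  have c3 : Continuous (ipm s k) := by
    unfold ipm
    exact continuous_finsetSum _ fun i _ => continuous_finsetSum _ fun j _ => (c1 i j).mul (c2 i j)
  have c4 : Continuous (ipm s s) := by
    unfold ipm
    exact continuous_finsetSum _ fun i _ => continuous_finsetSum _ fun j _ => (c1 i j).mul (c1 i j)
  refine integrable_finsetSum _ fun i _ => integrable_finsetSum _ fun j _ => ?_
  have c5 : Continuous fun x => tfp s k x i j := by
    have : (fun x => tfp s k x i j) = fun x => k x i j - ipm s k x / ipm s s x * s x i j := by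
      ext x
      simp [tfp]
    rw [this]
    exact (c2 i j).sub ((c3.div c4 fun x => (hp x).ne').mul (c1 i j))
  exact ((c2 i j).mul c5).integrable_of_hasCompactSupport ((hkc i j).mul_right)

theorem fin_ineq {k s : MF n} (hn : 3 ≤ n) (hk : ∀ i j, ContDiff ℝ ∞ fun x => k x i j)
    (hkc : ∀ i j, HasCompactSupport fun x => k x i j)
    (hs : ∀ x i j, |s x i j - (1 : Matrix (Fin n) (Fin n) ℝ) i j| ≤
      1 / (20 * (n : ℝ) * (n + 1)))
    (hd : ∀ j x, ∑ i, pd i (fun x => k x i j) x = 0)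
    (i4 : Integrable fun x => ∑ i, ∑ j, k x i j * tfp s k x i j) :
    ∫ x, ∑ i, ∑ j, k x i j ^ 2 ≤
      2 * ((n : ℝ) + 1) * ∫ x, ∑ i, ∑ j, k x i j * tfp s k x i j := by
  have hn0 : 0 < n := by omega
  have hnn : (0 : ℝ) < n := by exact_mod_cast hn0
  have key := trace_le (h := fun i j x => k x i j) hk hkc hn0 hd
  have i1 : Integrable fun x => ∑ i, ∑ j, k x i j ^ 2 :=
    integrable_finsetSum _ fun i _ => integrable_finsetSum _ fun j _ => int_cs (hk i j) (hkc i j)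
  have i3 : Integrable fun x => tr (fun i j x => k x i j) x ^ 2 := int_cs (tf hk) (tc hkc)
  have h3 : ∀ x, ∑ i, ∑ j, h0 (fun i j x => k x i j) i j x ^ 2 =
      ∑ i, ∑ j, k x i j ^ 2 - tr (fun i j x => k x i j) x ^ 2 / n := fun x => sum_h0 _ hn0 x
  have h4 : ∫ x, ∑ i, ∑ j, h0 (fun i j x => k x i j) i j x ^ 2 =
      (∫ x, ∑ i, ∑ j, k x i j ^ 2) - (∫ x, tr (fun i j x => k x i j) x ^ 2) / n := by
    simp only [h3]
    rw [integral_sub i1 (i3.div_const _), integral_div]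
  have hptw : (∫ x, ∑ i, ∑ j, k x i j ^ 2) - (∫ x, tr (fun i j x => k x i j) x ^ 2) / n ≤
      (∫ x, ∑ i, ∑ j, k x i j * tfp s k x i j) +
        1 / (2 * ((n : ℝ) + 1)) * ∫ x, ∑ i, ∑ j, k x i j ^ 2 := by
    rw [← integral_const_mul, ← integral_add i4 (i1.const_mul _), ← integral_div,
      ← integral_sub i1 (i3.div_const _)]
    exact integral_mono (i1.sub (i3.div_const _)) (i4.add (i1.const_mul _))
      fun x => ptw hn rfl (k := k) (hs x)
  rw [h4] at key
  set A := ∫ x, ∑ i, ∑ j, k x i j ^ 2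
  set T := ∫ x, tr (fun i j x => k x i j) x ^ 2
  set D := ∫ x, ∑ i, ∑ j, k x i j * tfp s k x i j
  have h5 : (1 + (n : ℝ)) * (A - T / n) ≤ (1 + n) * (D + 1 / (2 * ((n : ℝ) + 1)) * A) := by
    gcongr
  have h6 : (1 + (n : ℝ)) * (D + 1 / (2 * ((n : ℝ) + 1)) * A) = (1 + n) * D + A / 2 := by
    field_simp
    ring
  have h7 : T / n ≤ n * (A - T / n) := by
    rw [div_le_iff₀ hnn]
    nlinarith
  nlinarith

/-- (TFR) -/
theorem rowTFR : RowTFR := by
  intro n hn
  refine ⟨2 * ((n : ℝ) + 1), 1 / (20 * (n : ℝ) * (n + 1)), by positivity,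
    by have : (0 : ℝ) < n := by exact_mod_cast (by omega : 0 < n)
       positivity, ?_⟩
  intro s₁ s₂ h1 h2 hoff
  have hkf : ∀ i j, ContDiff ℝ ∞ fun x => (s₂ x - s₁ x) i j := fun i j =>
    (h2.sm i j).sub (h1.sm i j)
  have hz : ∀ x ∉ Bs n (1 / 2), s₂ x - s₁ x = 0 := fun x hx => by rw [hoff x hx, sub_self]
  have hkc := supp_off (k := fun x => s₂ x - s₁ x) hz
  have hd : ∀ j x, ∑ i, pd i (fun x => (s₂ x - s₁ x) i j) x = 0 := by
    intro j x
    by_cases hx : x ∈ Bn n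
    · exact div_diff h1.sm h2.sm j (h1.dv x hx j) (h2.dv x hx j)
    · exact div_off (k := fun x => s₂ x - s₁ x) hz hx j
  have hs : ∀ x i j, |s₁ x i j - (1 : Matrix (Fin n) (Fin n) ℝ) i j| ≤
      1 / (20 * (n : ℝ) * (n + 1)) := by
    intro x i j
    have := h1.cl i j 0 le_rfl x
    simpa using this
  have hp : ∀ x, 0 < ipm s₁ s₁ x := by
    intro x
    have hn1 : (3 : ℝ) ≤ n := by exact_mod_cast hn
    have he : 1 / (20 * (n : ℝ) * (n + 1)) < 1 := by
      rw [div_lt_one (by positivity)]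
      nlinarith
    have h3 : 0 < s₁ x ⟨0, by omega⟩ ⟨0, by omega⟩ := by
      have := (abs_le.1 (hs x ⟨0, by omega⟩ ⟨0, by omega⟩)).1
      rw [Matrix.one_apply_eq] at this
      linarith
    unfold ipm
    refine Finset.sum_pos' (fun i _ => Finset.sum_nonneg fun j _ => mul_self_nonneg _)
      ⟨⟨0, by omega⟩, Finset.mem_univ _, ?_⟩
    exact Finset.sum_pos' (fun j _ => mul_self_nonneg _)
      ⟨⟨0, by omega⟩, Finset.mem_univ _, mul_pos h3 h3⟩
  exact fin_ineq (k := fun x => s₂ x - s₁ x) hn hkf hkc hs hd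
    (int_tfp (k := fun x => s₂ x - s₁ x) h1.sm hkf hkc hp)

end Vale.Agent.P088.R2.H551.Tfr
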